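import Vale.Agent.Lib.P195.FinitePd

/-!
# P195 (Auslander-Reiten conjecture): modules of finite projective dimension

Let `A` be a left noetherian ring (for instance an Artin algebra) and `M` a finitely generated
left `A`-module of finite projective dimension.  If `Ext^i_A(M, A) = 0` for every `i ≥ 1`, then
`M` is projective.  In particular the Auslander-Reiten conjecture holds for every module of
finite projective dimension, hence over every Artin algebra of finite global dimension.
-/

namespace Vale.Agent.Results.P195.FiniteProjectiveDimension

open CategoryTheory Vale.Agent.Lib.P195

universe u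

theorem result {A : Type u} [Ring A] [IsNoetherianRing A]
    (M : Type u) [AddCommGroup M] [Module A M] [Module.Finite A M]
    (hpd : projectiveDimension (ModuleCat.of A M) ≠ ⊤)
    (hExt : ∀ i : ℕ, 1 ≤ i →
      Subsingleton (Abelian.Ext.{u} (ModuleCat.of A M) (ModuleCat.of A A) i)) :
    Module.Projective A M := by
  rw [projectiveDimension_ne_top_iff] at hpd
  obtain ⟨n, hn⟩ := hpd
  exact projective_of_hasProjectiveDimensionLT n M hn
    (fun i hi e => (hExt i hi).elim e 0)

end Vale.Agent.Results.P195.FiniteProjectiveDimension
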